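import Vale.Agent.P329.H808.RowB0

/-!
# Rows B1, B2, B3
-/

namespace Vale.Agent.P329.H808

open H259 (pw pw_zero pw_succ pw_one pw_add pw_succ' pw_mul pw_length FQ PP)
open H962

variable {α : Type} {p : ℕ} {w h : List α → ZMod p} {S T R : Type}

/-! ### counting cuts -/

theorem nc_append (t u c : List α) : nc w (t ++ u) c = nc w t (u ++ c) + nc w u c := by
  induction t with
  | nil => simp [nc]
  | cons a t ih =>
    rw [List.cons_append, nc, ih, nc, List.append_assoc]
    omega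

theorem nc_lt {c u t : List α} (hs : t <:+ u) (hne : t ≠ u) (hu : w (u ++ c) ≠ 0) :
    nc w t c + 1 ≤ nc w u c := by
  obtain ⟨r, rfl⟩ := hs
  cases r with
  | nil => exact absurd rfl hne
  | cons a r =>
    rw [List.cons_append, nc, if_neg (by rwa [← List.cons_append, ← List.cons_append]), nc_append]
    omega

theorem nc_le (c r u : List α) : nc w u c ≤ nc w (r ++ u) c := by
  rw [nc_append]; omega

theorem nc_rc (hh : ∀ X, h X ≠ 0 → w X ≠ 0) (ρ : ZMod p) (u c : List α) :
    nc (rc h ρ) u c ≤ nc w u c := by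
  induction u with
  | nil => exact le_rfl
  | cons a u ih =>
    rw [nc, nc]
    by_cases h1 : w (a :: (u ++ c)) = 0
    · have h2 : rc h ρ (a :: (u ++ c)) = 0 := by
        rw [rc]
        split_ifs
        · by_contra h3; exact hh _ h3 h1
        · rfl
      rw [if_pos h1, if_pos h2]
      omega
    · rw [if_neg h1]
      split_ifs <;> omega

theorem nc_pow {v v1 v2 c : List α} (hv : v = v1 ++ v2) (h2 : v2 ≠ [])
    (hall : ∀ i, w (pw (v2 ++ v1) i ++ c) ≠ 0) : ∀ a, a ≤ nc w (pw v a ++ v1) c := by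
  intro a
  induction a with
  | zero => omega
  | succ a ih =>
    have e1 : pw v (a + 1) ++ v1 = v1 ++ (v2 ++ (pw v a ++ v1)) := by
      rw [pw_succ]
      nth_rw 1 [hv]
      simp only [List.append_assoc]
    have e2 : v2 ++ (pw v a ++ v1) = pw (v2 ++ v1) (a + 1) := by
      rw [pw_succ, List.append_assoc, hv, ← conj_pw]
    have e3 := nc_lt (w := w) (c := c) (u := v2 ++ (pw v a ++ v1))
      (t := pw v a ++ v1) (List.suffix_append _ _) (fun e => h2 (by
        have h9 := congrArg List.length e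
        simp only [List.length_append] at h9
        exact List.length_eq_zero_iff.mp (by omega))) (by rw [e2]; exact hall _)
    rw [e1]
    have e4 := nc_le (w := w) c v1 (v2 ++ (pw v a ++ v1))
    omega

/-! ### recursions -/

def recv (Ψ : S → T → S) (r : List α → T) (s : S) : List α → S
  | [] => s
  | a :: Y => Ψ (recv Ψ r s Y) (r (a :: Y))

theorem fs_map {f : List α → S} (hf : FS f) (φ : S → T) : FS fun X => φ (f X) := by
  refine (Set.Finite.image (fun r : List α → S => fun Y => φ (r Y)) hf).subset ?_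
  rintro _ ⟨X, rfl⟩
  exact ⟨_, ⟨X, rfl⟩, rfl⟩

theorem fs_pair {f : List α → S} {g : List α → T} (hf : FS f) (hg : FS g) :
    FS fun X => (f X, g X) := by
  refine (Set.Finite.image (fun q : (List α → S) × (List α → T) => fun Y => (q.1 Y, q.2 Y))
    (Set.Finite.prod hf hg)).subset ?_
  rintro _ ⟨X, rfl⟩
  exact ⟨(_, _), ⟨⟨X, rfl⟩, ⟨X, rfl⟩⟩, rfl⟩

theorem fs_rec [Finite S] {f : List α → S} {g : List α → T} (hg : FS g) (Ψ : S → T → S)
    (hf : ∀ a X, f (a :: X) = Ψ (f X) (g (a :: X))) : FS f := by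
  refine (Set.Finite.image (fun q : (List α → T) × S => recv Ψ q.1 q.2)
    (Set.Finite.prod hg (Set.finite_univ (α := S)))).subset ?_
  rintro _ ⟨X, rfl⟩
  refine ⟨(fun Y => g (Y ++ X), f X), ⟨⟨X, rfl⟩, trivial⟩, ?_⟩
  funext Y
  induction Y with
  | nil => rfl
  | cons a Y ih =>
    change Ψ (recv Ψ (fun Y => g (Y ++ X)) (f X) Y) (g (a :: Y ++ X)) = f (a :: Y ++ X)
    rw [List.cons_append, hf]
    exact congrArg (fun s => Ψ s _) ih

theorem rec_up {f : List α → S} {g : List α → T} {Ψ : S → T → S}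
    (hf : ∀ a X, f (a :: X) = Ψ (f X) (g (a :: X))) {P Q : List α} (h0 : f P = f Q)
    (h1 : ∀ u, u ≠ [] → g (u ++ P) = g (u ++ Q)) : ∀ u, f (u ++ P) = f (u ++ Q) := by
  intro u
  induction u with
  | nil => exact h0
  | cons a u ih =>
    have h2 := h1 (a :: u) (by simp)
    rw [List.cons_append, List.cons_append] at h2 ⊢
    rw [hf, hf, ih, h2]

theorem rec_const {f : List α → S} (hc : ∀ a X, w (a :: X) = 0 → f (a :: X) = f X) {X : List α} :
    ∀ u, Unc w u X → f (u ++ X) = f X := by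
  intro u
  induction u with
  | nil => intro _; rfl
  | cons a u ih =>
    intro hu
    have h1 := hu (a :: u) (List.suffix_refl _) (by simp)
    rw [List.cons_append] at h1 ⊢
    rw [hc _ _ h1]
    exact ih fun B hB hne => hu B (hB.trans (List.suffix_cons _ _)) hne

theorem unc_mono {V V' X : List α} (hU : Unc w V X) (hs : V' <:+ V) : Unc w V' X :=
  fun B hB hne => hU B (hB.trans hs) hne

theorem pw_suf (v : List α) {m n : ℕ} (hm : m ≤ n) : pw v m <:+ pw v n := by
  obtain ⟨k, rfl⟩ := Nat.exists_eq_add_of_le hm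
  rw [Nat.add_comm, pw_add]
  exact List.suffix_append _ _

/-- one more power of an uncut stretch is uncut -/
theorem unc_succ {v : List α} {n0 : ℕ}
    (hap : ∀ n, n0 ≤ n → ∀ X Y, Unc w (pw v n) X →
      w (Y ++ (pw v n ++ X)) = w (Y ++ (pw v (n + 1) ++ X))) {k : ℕ} (hk : n0 + 1 ≤ k)
    {X : List α} (hU : Unc w (pw v k) X) : Unc w (pw v (k + 1)) X := by
  intro B hB hne
  obtain ⟨v1, v2, j, e1, e2, e3, e4⟩ := suffix_pw hne hB
  rcases Nat.lt_or_ge j k with hlt | hge
  · refine hU B ?_ hne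
    rw [e3]
    refine List.IsSuffix.trans ?_ (pw_suf v (show j + 1 ≤ k from hlt))
    rw [pw_succ]
    exact ⟨v1, by rw [← List.append_assoc, ← e1]⟩
  · have : j = k := by omega
    subst this
    obtain ⟨m, rfl⟩ : ∃ m, j = m + 1 := ⟨j - 1, by omega⟩
    rw [e3, List.append_assoc, ← hap m (by omega) X v2 (unc_mono hU (pw_suf v (by omega))),
      ← List.append_assoc]
    refine hU _ ?_ (by simp [e2])
    rw [pw_succ]
    exact ⟨v1, by rw [← List.append_assoc, ← e1]⟩

/-- **Lifting of aperiodicity along a recursion.** -/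
theorem ap_rec [Fact p.Prime] (hw : Stg w) (hh : Unt w h) (ρ : ZMod p) {f : List α → S}
    {g : List α → T} {Ψ : S → T → S} (hf : ∀ a X, f (a :: X) = Ψ (f X) (g (a :: X)))
    (hc : ∀ a X, w (a :: X) = 0 → f (a :: X) = f X) (hg : AP w g) (hr : Rt w g)
    (hl : ∀ c q, w c ≠ 0 → w (q ++ c) ≠ 0 → N h (q ++ c) = N h c → Unc (rc h ρ) q c →
      rc h ρ c = 0 → f (q ++ c) = f c) : AP (rc h ρ) f := by
  intro v
  by_cases hv : v = []
  · subst hv
    exact ⟨0, fun _ _ _ _ _ => rfl⟩
  obtain ⟨n1, h1⟩ := hg v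
  obtain ⟨n2, h2⟩ := hw.ap v
  obtain ⟨n3, h3⟩ := dich hw.rt hh ρ hv 0 (max n1 (n2 + 1))
  refine ⟨n3, fun n hn X Y hX => ?_⟩
  rcases h3 n hn X hX with ⟨a, k, b, e1, e2, e3⟩ | ⟨v1, v2, a, b, e1, e2, e3, e4, e5, e6, e7, -, -⟩
  · have e5 : pw v n ++ X = pw v a ++ (pw v k ++ (pw v b ++ X)) := by
      rw [e1, pw_add, pw_add, List.append_assoc, List.append_assoc]
    have e6 : pw v (n + 1) ++ X = pw v a ++ (pw v (k + 1) ++ (pw v b ++ X)) := by
      rw [show n + 1 = a + ((k + 1) + b) by omega, pw_add, pw_add v (k + 1),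
        List.append_assoc, List.append_assoc]
    rw [e5, e6, ← List.append_assoc Y, ← List.append_assoc Y]
    refine rec_up hf ?_ (fun u _ => h1 k (le_trans (le_max_left _ _) e2) _ _ e3) _
    rw [rec_const hc _ e3, rec_const hc _ (unc_succ h2 (le_trans (le_max_right _ _) e2) e3)]
  · set c := v2 ++ (pw v b ++ X) with hcd
    have e8 : pw v n ++ X = (pw v a ++ v1) ++ c := by
      rw [e3, pw_add, pw_succ, hcd]
      nth_rw 2 [e1]
      simp only [List.append_assoc]
    have e9 : pw v (n + 1) ++ X = (pw v a ++ v1) ++ ((v2 ++ v1) ++ c) := by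
      rw [show n + 1 = a + (b + 1 + 1) by omega, pw_add, pw_succ, pw_succ, hcd]
      nth_rw 2 3 [e1]
      simp only [List.append_assoc]
    have e10 : v2 ++ pw v b <:+ pw v (b + 1) := by
      rw [pw_succ]
      exact ⟨v1, by rw [← List.append_assoc, ← e1]⟩
    rw [e8, e9, ← List.append_assoc Y (pw v a ++ v1) c,
      ← List.append_assoc Y (pw v a ++ v1) (v2 ++ v1 ++ c)]
    refine rec_up hf (hl c (v2 ++ v1) e5 e6 e7 ?_ ?_).symm (fun u hu => hr _ _ u e5 e6 hu) _
    · intro B hB hne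
      rw [hcd, ← List.append_assoc v2, ← List.append_assoc]
      refine hX _ ?_ (by simp [hne])
      refine List.IsSuffix.trans ?_ (pw_suf v (show b + 1 + 1 ≤ n by omega))
      obtain ⟨r, hr⟩ := hB
      rw [pw_succ, pw_succ]
      refine ⟨v1 ++ r, ?_⟩
      calc v1 ++ r ++ (B ++ (v2 ++ pw v b)) = v1 ++ ((r ++ B) ++ (v2 ++ pw v b)) := by
            simp only [List.append_assoc]
        _ = (v1 ++ v2) ++ ((v1 ++ v2) ++ pw v b) := by
            rw [hr]; simp only [List.append_assoc]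
        _ = _ := by rw [← e1]
    · rw [hcd, ← List.append_assoc]
      exact hX _ (e10.trans (pw_suf v (by omega))) (by simp [e2])

theorem rowB2 : RowB2 := by
  intro α A p _ w h hw hh ρ G hG
  obtain ⟨h1, h2, n, h3⟩ := hG
  refine ⟨h1, ?_, n, fun c c' S hc hc' hn => ?_⟩
  · intro v
    by_cases hv : v = []
    · subst hv
      exact ⟨0, fun _ _ _ _ _ => rfl⟩
    obtain ⟨n1, h4⟩ := h2 v
    obtain ⟨n3, h5⟩ := dich hw.rt hh ρ hv n n1
    refine ⟨n3, fun m hm X Y hX => ?_⟩
    rcases h5 m hm X hX with ⟨a, k, b, e1, e2, e3⟩ | ⟨v1, v2, a, b, e1, e2, e3, e4, e5, e6, e7, e8, e9⟩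
    · have e5 : pw v m ++ X = pw v a ++ (pw v k ++ (pw v b ++ X)) := by
        rw [e1, pw_add, pw_add, List.append_assoc, List.append_assoc]
      have e6 : pw v (m + 1) ++ X = pw v a ++ (pw v (k + 1) ++ (pw v b ++ X)) := by
        rw [show m + 1 = a + ((k + 1) + b) by omega, pw_add, pw_add v (k + 1),
          List.append_assoc, List.append_assoc]
      rw [e5, e6, ← List.append_assoc Y, ← List.append_assoc Y]
      exact h4 k e2 _ _ e3
    · set c := v2 ++ (pw v b ++ X) with hcd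
      have e10 : pw v m ++ X = (pw v a ++ v1) ++ c := by
        rw [e3, pw_add, pw_succ, hcd]
        nth_rw 2 [e1]
        simp only [List.append_assoc]
      have e11 : pw v (m + 1) ++ X = (pw v a ++ v1) ++ ((v2 ++ v1) ++ c) := by
        rw [show m + 1 = a + (b + 1 + 1) by omega, pw_add, pw_succ, pw_succ, hcd]
        nth_rw 2 3 [e1]
        simp only [List.append_assoc]
      rw [e10, e11, ← List.append_assoc Y (pw v a ++ v1) c,
        ← List.append_assoc Y (pw v a ++ v1) (v2 ++ v1 ++ c)]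
      refine h3 _ _ _ e5 e6 ?_
      have e12 := nc_pow (w := w) (c := c) e1 e2 e9 a
      have e13 := nc_le (w := w) c Y (pw v a ++ v1)
      omega
  · have aux : ∀ X, rc h ρ X ≠ 0 → w X ≠ 0 := by
      intro X hX
      rw [rc] at hX
      split_ifs at hX with h6
      · exact hh.sup X hX
      · exact absurd rfl hX
    exact h3 c c' S (aux c hc) (aux c' hc') (hn.trans (nc_rc hh.sup ρ S c))

theorem rc_sup (hh : Unt w h) {ρ : ZMod p} {X : List α} (hX : rc h ρ X ≠ 0) :
    w X ≠ 0 ∧ h X ≠ 0 ∧ N h X = ρ := by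
  rw [rc] at hX
  split_ifs at hX with h6
  · exact ⟨hh.sup X hX, hX, h6⟩
  · exact absurd rfl hX

theorem rowB3 : RowB3 := by
  intro α p _ w h hw hh ρ
  have hne : NeZero p := ⟨(Fact.out : p.Prime).ne_zero⟩
  refine ⟨fs_rec hh.fs (fun s t => s + t) (fun a X => rfl), ?_, 0, ?_⟩
  · refine ap_rec hw hh ρ (f := N h) (g := h) (Ψ := fun s t => s + t) (fun a X => rfl) ?_
      hh.ap hh.rt (fun c q _ _ h1 _ _ => h1)
    intro a X h1
    have h2 : h (a :: X) = 0 := by
      by_contra h3; exact hh.sup _ h3 h1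
    rw [N, h2, add_zero]
  · intro c c' S hc hc' _
    have h1 := rc_sup hh hc
    have h2 := rc_sup hh hc'
    rw [N_ren hh.rt h1.1 h2.1 S, h1.2.2, h2.2.2]
    ring

end Vale.Agent.P329.H808
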