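import Vale.Agent.P329.H962.Rows
import Mathlib.Combinatorics.Pigeonhole
import Mathlib.FieldTheory.Finite.Basic

/-!
# The pumping dichotomy (RowB0)
-/

namespace Vale.Agent.P329.H808

open H259 (pw pw_zero pw_succ pw_one pw_add pw_succ' pw_mul pw_length FQ PP)
open H962

variable {α : Type} {p : ℕ} {w h : List α → ZMod p}

theorem suffix_pw {v s : List α} (hs : s ≠ []) : ∀ {n : ℕ}, s <:+ pw v n →
    ∃ v1 v2 j, v = v1 ++ v2 ∧ v2 ≠ [] ∧ s = v2 ++ pw v j ∧ j + 1 ≤ n := by
  intro n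
  induction n with
  | zero => intro h; exact absurd (List.suffix_nil.mp h) hs
  | succ n ih =>
    rintro ⟨r, hr⟩
    rw [pw_succ] at hr
    rcases List.append_eq_append_iff.1 hr with ⟨as, h1, h2⟩ | ⟨bs, h1, h2⟩
    · by_cases has : as = []
      · subst has
        obtain ⟨v1, v2, j, e1, e2, e3, e4⟩ := ih (by rw [h2]; exact List.suffix_refl _)
        exact ⟨v1, v2, j, e1, e2, e3, by omega⟩
      · exact ⟨r, as, n, h1, has, h2, le_rfl⟩
    · obtain ⟨v1, v2, j, e1, e2, e3, e4⟩ := ih ⟨bs, h2.symm⟩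
      exact ⟨v1, v2, j, e1, e2, e3, by omega⟩

theorem conj_pw (v1 v2 : List α) (d : ℕ) :
    v2 ++ pw (v1 ++ v2) d = pw (v2 ++ v1) d ++ v2 := (H157.pw_conj v2 v1 d).symm

theorem N_const {c : List α} : ∀ u : List α, (∀ t, t ≠ [] → t <:+ u → h (t ++ c) = 0) →
    N h (u ++ c) = N h c := by
  intro u
  induction u with
  | nil => intro _; rfl
  | cons a u ih =>
    intro hu
    have h1 := hu (a :: u) (by simp) (List.suffix_refl _)
    rw [List.cons_append] at h1
    rw [List.cons_append, N, h1, add_zero]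
    exact ih fun t h2 h3 => hu t h2 (h3.trans (List.suffix_cons _ _))

theorem N_ren {f : List α → ZMod p} (hf : Rt w f) {c c' : List α} (h1 : w c ≠ 0)
    (h2 : w c' ≠ 0) (u : List α) : N f (u ++ c) = N f c + (N f (u ++ c') - N f c') := by
  induction u with
  | nil => simp
  | cons a u ih =>
    have h3 := hf c c' (a :: u) h1 h2 (by simp)
    rw [List.cons_append, List.cons_append] at h3
    rw [List.cons_append, List.cons_append, N, N, ih, h3]
    ring

theorem pw_ne {v : List α} (hv : v ≠ []) {j : ℕ} (hj : 1 ≤ j) : pw v j ≠ [] := by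
  obtain ⟨i, rfl⟩ : ∃ i, j = i + 1 := ⟨j - 1, by omega⟩
  rw [pw_succ]
  simp [hv]

section cyc

/-- powers which are returns -/
theorem ret_add (hw : Rt w w) {c v : List α} (hv : v ≠ []) {i : ℕ}
    (hc : w c ≠ 0) (hi : w (pw v i ++ c) ≠ 0) {j : ℕ} (hj : 1 ≤ j) :
    w (pw v (j + i) ++ c) = w (pw v j ++ c) := by
  rw [pw_add, List.append_assoc]
  exact hw _ _ _ hi hc (pw_ne hv hj)

theorem ret_dvd (hw : Rt w w) {c v : List α} (hv : v ≠ []) (hc : w c ≠ 0) {j0 : ℕ}
    (h1 : 1 ≤ j0) (h2 : w (pw v j0 ++ c) ≠ 0) (h3 : ∀ i, 1 ≤ i → i < j0 → w (pw v i ++ c) = 0) :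
    ∀ d, w (pw v d ++ c) ≠ 0 → j0 ∣ d := by
  intro d
  induction d using Nat.strong_induction_on with
  | _ d ih =>
    intro hd
    rcases Nat.eq_zero_or_pos d with rfl | hpos
    · exact dvd_zero _
    · have h4 : j0 ≤ d := by
        by_contra hlt
        exact hd (h3 d hpos (by omega))
      rcases Nat.eq_or_lt_of_le h4 with rfl | hlt
      · exact dvd_rfl
      · have h5 := ret_add hw hv hc h2 (j := d - j0) (by omega)
        rw [Nat.sub_add_cancel h4] at h5
        rw [h5] at hd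
        have h6 := ih (d - j0) (by omega) hd
        have h7 := Nat.dvd_add h6 (dvd_refl j0)
        rwa [Nat.sub_add_cancel h4] at h7

theorem ret_mul (hw : Rt w w) {c v : List α} (hv : v ≠ []) (hc : w c ≠ 0) {j0 : ℕ}
    (h1 : 1 ≤ j0) (h2 : w (pw v j0 ++ c) ≠ 0) : ∀ i, w (pw v (j0 * i) ++ c) ≠ 0 := by
  intro i
  induction i with
  | zero => simpa using hc
  | succ i ih =>
    rw [Nat.mul_succ, Nat.add_comm, ret_add hw hv hc ih h1]
    exact h2

/-- heights along a return loop -/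
theorem N_loop {f : List α → ZMod p} (hf : Rt w f) {c q : List α}
    (hc : w c ≠ 0) (hq : ∀ i, w (pw q i ++ c) ≠ 0) (i : ℕ) :
    N f (pw q i ++ c) = N f c + i * (N f (q ++ c) - N f c) := by
  induction i with
  | zero => simp
  | succ i ih =>
    rw [pw_succ, List.append_assoc, N_ren hf (hq i) hc, ih]
    push_cast
    ring

end cyc

/-- **Pumping dichotomy.** -/
theorem dich [Fact p.Prime] (hw : Rt w w) (hh : Unt w h) (ρ : ZMod p) {v : List α} (hv0 : v ≠ [])
    (K N0 : ℕ) : ∃ n1, ∀ n, n1 ≤ n → ∀ y, Unc (rc h ρ) (pw v n) y →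
    (∃ a m b, n = a + (m + b) ∧ N0 ≤ m ∧ Unc w (pw v m) (pw v b ++ y)) ∨
    (∃ v1 v2 a b, v = v1 ++ v2 ∧ v2 ≠ [] ∧ n = a + (b + 1) ∧ 1 ≤ a ∧
      w (v2 ++ (pw v b ++ y)) ≠ 0 ∧ w ((v2 ++ v1) ++ (v2 ++ (pw v b ++ y))) ≠ 0 ∧
      N h ((v2 ++ v1) ++ (v2 ++ (pw v b ++ y))) = N h (v2 ++ (pw v b ++ y)) ∧
      K ≤ a ∧ ∀ i, w (pw (v2 ++ v1) i ++ (v2 ++ (pw v b ++ y))) ≠ 0) := by
  classical
  have hp : p.Prime := Fact.out
  have hp1 : 1 ≤ p := hp.one_lt.le
  have hne : NeZero p := ⟨hp.ne_zero⟩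
  set R := K + p with hR
  set M := N0 + 1 with hM
  set T := (v.length + 1) * R + 1 with hT
  refine ⟨M * T, fun n hn y hcf => ?_⟩
  by_cases hA : ∃ a m b, n = a + (m + b) ∧ N0 ≤ m ∧ Unc w (pw v m) (pw v b ++ y)
  · exact Or.inl hA
  right
  have hblock : ∀ i : Fin T, ∃ v1 v2 b, v = v1 ++ v2 ∧ v2 ≠ [] ∧ M * i.1 ≤ b ∧
      b < M * (i.1 + 1) ∧ w (v2 ++ (pw v b ++ y)) ≠ 0 := by
    intro i
    have h1 : M * (i.1 + 1) ≤ M * T := Nat.mul_le_mul_left M i.2
    have h2 : ¬ Unc w (pw v M) (pw v (M * i.1) ++ y) := by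
      intro h3
      apply hA
      refine ⟨n - M * (i.1 + 1), M, M * i.1, ?_, by omega, h3⟩
      have : M * (i.1 + 1) = M * i.1 + M := by ring
      omega
    rw [Unc] at h2
    push Not at h2
    obtain ⟨s, hs2, hs, hs3⟩ := h2
    obtain ⟨v1, v2, j, e1, e2, e3, e4⟩ := suffix_pw hs hs2
    refine ⟨v1, v2, j + M * i.1, e1, e2, by omega, ?_, ?_⟩
    · have : M * (i.1 + 1) = M * i.1 + M := by ring
      omega
    · rw [e3, List.append_assoc] at hs3
      rw [pw_add, List.append_assoc]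
      exact hs3
  choose V1 V2 bb hb1 hb2 hb3 hb4 hb5 using hblock
  have hlen : ∀ i, (V2 i).length < v.length + 1 := by
    intro i
    have := congrArg List.length (hb1 i)
    rw [List.length_append] at this
    omega
  obtain ⟨k, hk⟩ := Fintype.exists_lt_card_fiber_of_mul_lt_card
    (f := fun i : Fin T => (⟨(V2 i).length, hlen i⟩ : Fin (v.length + 1))) (n := R) (by
      rw [Fintype.card_fin, Fintype.card_fin]; omega)
  set S : Finset (Fin T) := Finset.univ.filter fun i =>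
    (⟨(V2 i).length, hlen i⟩ : Fin (v.length + 1)) = k with hS
  have hinj : ∀ i j : Fin T, i.1 < j.1 → bb i < bb j := by
    intro i j hij
    have h1 : M * (i.1 + 1) ≤ M * j.1 := Nat.mul_le_mul_left M hij
    have := hb4 i
    have := hb3 j
    omega
  have hSne : S.Nonempty := Finset.card_pos.mp (by omega)
  obtain ⟨i0, hi0, hmin⟩ := S.exists_min_image bb hSne
  set b0 := bb i0 with hb0
  obtain ⟨v1, hv1⟩ : ∃ v1, v1 = V1 i0 := ⟨_, rfl⟩
  obtain ⟨v2, hv2⟩ : ∃ v2, v2 = V2 i0 := ⟨_, rfl⟩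
  have hvv : v = v1 ++ v2 := by rw [hv1, hv2]; exact hb1 i0
  have hv20 : v2 ≠ [] := by rw [hv2]; exact hb2 i0
  have hsame : ∀ i ∈ S, V2 i = v2 := by
    intro i hi
    rw [hS, Finset.mem_filter] at hi hi0
    have h1 : (V2 i).length = (V2 i0).length := by
      have h2 := congrArg Fin.val hi.2
      have h3 := congrArg Fin.val hi0.2
      simp only at h2 h3
      rw [h2, h3]
    rw [hv2]
    exact (List.append_inj' ((hb1 i).symm.trans (hb1 i0)) h1).2
  set c := v2 ++ (pw v b0 ++ y) with hc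
  set v' := v2 ++ v1 with hv'
  have hv'0 : v' ≠ [] := by rw [hv']; simp [hv20]
  have hshift : ∀ d, pw v' d ++ c = v2 ++ (pw v (d + b0) ++ y) := by
    intro d
    rw [hc, pw_add, hv', ← List.append_assoc, ← List.append_assoc, ← conj_pw, ← hvv]
    simp only [List.append_assoc]
  have hcc : w c ≠ 0 := by
    rw [hc, hv2]
    exact hb5 i0
  have hPS : ∀ i ∈ S, w (pw v' (bb i - b0) ++ c) ≠ 0 := by
    intro i hi
    rw [hshift, Nat.sub_add_cancel (hmin i hi), ← hsame i hi]
    exact hb5 i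
  have hbn : ∀ i, bb i + 1 ≤ n := by
    intro i
    have h1 : M * (i.1 + 1) ≤ M * T := Nat.mul_le_mul_left M i.2
    have := hb4 i
    omega
  -- another element
  have hex : ∃ j, 1 ≤ j ∧ w (pw v' j ++ c) ≠ 0 := by
    have h1 : 1 < S.card := by omega
    obtain ⟨i, hi, hne1⟩ := Finset.exists_mem_ne h1 i0
    refine ⟨bb i - b0, ?_, hPS i hi⟩
    rcases lt_trichotomy i.1 i0.1 with hlt | heq | hlt
    · have := hinj i i0 hlt
      have := hmin i hi
      omega
    · exact absurd (Fin.ext heq) hne1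
    · have := hinj i0 i hlt
      omega
  obtain ⟨j0, hj1, hj2, hj3⟩ : ∃ j0, 1 ≤ j0 ∧ w (pw v' j0 ++ c) ≠ 0 ∧
      ∀ i, 1 ≤ i → i < j0 → w (pw v' i ++ c) = 0 := by
    refine ⟨Nat.find hex, (Nat.find_spec hex).1, (Nat.find_spec hex).2, fun i h1 h2 => ?_⟩
    by_contra h3
    exact Nat.find_min hex h2 ⟨h1, h3⟩
  have hdvd := ret_dvd hw hv'0 hcc hj1 hj2 hj3
  have hmulr := ret_mul hw hv'0 hcc hj1 hj2
  -- the stretch is long
  have hD : j0 * R ≤ n - 1 - b0 := by
    have h1 : S.card ≤ (Finset.range ((n - 1 - b0) / j0 + 1)).card := by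
      refine Finset.card_le_card_of_injOn (fun i => (bb i - b0) / j0) ?_ ?_
      · intro i hi
        rw [Finset.mem_coe, Finset.mem_range]
        have := hbn i
        exact Nat.lt_succ_of_le (Nat.div_le_div_right (by omega))
      · intro i hi j hj hij
        have h2 := Nat.div_mul_cancel (hdvd _ (hPS i hi))
        have h3 := Nat.div_mul_cancel (hdvd _ (hPS j hj))
        have h4 : (bb i - b0) / j0 = (bb j - b0) / j0 := hij
        rw [h4, h3] at h2
        have h5 := hmin i hi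
        have h6 := hmin j hj
        have h7 : bb i = bb j := by omega
        rcases lt_trichotomy i.1 j.1 with hlt | heq | hlt
        · have := hinj i j hlt; omega
        · exact Fin.ext heq
        · have := hinj j i hlt; omega
    rw [Finset.card_range] at h1
    have h2 : R ≤ (n - 1 - b0) / j0 := by omega
    calc j0 * R ≤ j0 * ((n - 1 - b0) / j0) := Nat.mul_le_mul_left _ h2
      _ ≤ n - 1 - b0 := Nat.mul_div_le _ _
  -- no nonzero sum
  have hH : N h (pw v' j0 ++ c) = N h c := by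
    by_contra hH
    set q := pw v' j0 with hq
    have hqi : ∀ i, w (pw q i ++ c) ≠ 0 := by
      intro i
      rw [hq, ← pw_mul]
      exact hmulr i
    set H := N h (q ++ c) - N h c with hHd
    have hH0 : H ≠ 0 := sub_ne_zero.mpr hH
    obtain ⟨t, ht1, ht2, ht3⟩ : ∃ t, t ≠ [] ∧ t <:+ q ∧ h (t ++ c) ≠ 0 := by
      by_contra hno
      push Not at hno
      exact hH (N_const q hno)
    set i := ((ρ - N h (t ++ c)) * H⁻¹).val with hi
    have hip : i < p := ZMod.val_lt _
    have e1 : (i : ZMod p) * H = ρ - N h (t ++ c) := by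
      rw [hi, ZMod.natCast_zmod_val, mul_assoc, inv_mul_cancel₀ hH0, mul_one]
    have e2 : N h (t ++ (pw q i ++ c)) = ρ := by
      rw [N_ren hh.rt (hqi i) hcc, N_loop hh.rt hcc hqi i, ← hHd, e1]
      ring
    have e3 : h (t ++ (pw q i ++ c)) ≠ 0 := by
      rw [hh.rt _ c t (hqi i) hcc ht1]
      exact ht3
    have e4 : rc h ρ (t ++ (pw q i ++ c)) ≠ 0 := by
      rw [rc, if_pos e2]; exact e3
    apply e4
    have e5 : t ++ (pw q i ++ c) = (t ++ (pw q i ++ (v2 ++ pw v b0))) ++ y := by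
      rw [hc]; simp only [List.append_assoc]
    rw [e5]
    refine hcf _ ?_ (by simp [ht1])
    · obtain ⟨r, hr⟩ := ht2
      have e6 : r ++ (t ++ (pw q i ++ (v2 ++ pw v b0))) = v2 ++ pw v (j0 * (i + 1) + b0) := by
        rw [← List.append_assoc r, hr, ← List.append_assoc q, ← pw_succ, hq, ← pw_mul, pw_add,
          hv', ← List.append_assoc, ← List.append_assoc v2, ← conj_pw, ← hvv]
      have e7 : (t ++ (pw q i ++ (v2 ++ pw v b0))) <:+ v2 ++ pw v (j0 * (i + 1) + b0) :=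
        ⟨r, e6⟩
      refine e7.trans ?_
      have e8 : v2 ++ pw v (j0 * (i + 1) + b0) <:+ pw v (j0 * (i + 1) + b0 + 1) := by
        rw [pw_succ]
        refine ⟨v1, ?_⟩
        rw [← List.append_assoc, ← hvv]
      refine e8.trans ?_
      have e9 : j0 * (i + 1) + b0 + 1 ≤ n := by
        have h1 : j0 * (i + 1) ≤ j0 * R := Nat.mul_le_mul_left _ (by omega)
        have := hbn i0
        omega
      have e10 : n = (n - (j0 * (i + 1) + b0 + 1)) + (j0 * (i + 1) + b0 + 1) := by omega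
      rw [e10, pw_add v (n - (j0 * (i + 1) + b0 + 1))]
      exact List.suffix_append _ _
  have hj01 : j0 = 1 := by
    by_contra hne1
    exact hh.ch c v' j0 hcc (by omega) hj2 hj3 hH
  subst hj01
  rw [pw_one] at hj2 hH
  have hall : ∀ i, w (pw v' i ++ c) ≠ 0 := fun i => by
    have := hmulr i
    rwa [Nat.one_mul] at this
  rw [Nat.one_mul] at hD
  have hbn0 := hbn i0
  exact ⟨v1, v2, n - 1 - b0, b0, hvv, hv20, by omega, by omega, hcc, hj2, hH, by omega, hall⟩

theorem rowB0 : RowB0 := by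
  intro α p _ w h hw hh ρ v n0
  by_cases hv : v = []
  · subst hv
    have h1 : ∀ n, pw ([] : List α) n = [] := by
      intro n
      induction n with
      | zero => rfl
      | succ n ih => rw [pw_succ, ih]; rfl
    refine ⟨n0, fun n hn X _ => Or.inl ⟨0, by omega, ?_⟩⟩
    intro B hB hne
    rw [h1] at hB
    exact absurd (List.suffix_nil.mp hB) hne
  · obtain ⟨n1, h1⟩ := dich hw.rt hh ρ hv n0 n0
    refine ⟨n1, fun n hn X hX => ?_⟩
    rcases h1 n hn X hX with ⟨a, m, b, e1, e2, e3⟩ | ⟨v1, v2, a, b, e1, e2, e3, e4, e5, e6, e7, e8, -⟩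
    · refine Or.inl ⟨b, by omega, fun B hB hne => e3 B (hB.trans ?_) hne⟩
      obtain ⟨k, rfl⟩ := Nat.exists_eq_add_of_le e2
      rw [Nat.add_comm, pw_add]
      exact List.suffix_append _ _
    · exact Or.inr ⟨b, v2, v1, e1, by omega, e5, e6, e7⟩

end Vale.Agent.P329.H808
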