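import Vale.Agent.P329.H808.RowB

/-!
# Row B1 and the turn lemma
-/

namespace Vale.Agent.P329.H808

open H259 (pw pw_zero pw_succ pw_one pw_add pw_succ' pw_mul pw_length FQ PP)
open H962

variable {α : Type} {p : ℕ} {w h : List α → ZMod p} {S T R : Type}

theorem sum_hit [Fact p.Prime] {s A ρ F : ZMod p} (hs : s ≠ 0) :
    ∑ i ∈ Finset.range p, (if A + (i : ZMod p) * s = ρ then F else 0) = F := by
  have hne : NeZero p := ⟨(Fact.out : p.Prime).ne_zero⟩
  set i0 := ((ρ - A) * s⁻¹).val with hi0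
  have h1 : i0 < p := ZMod.val_lt _
  have h2 : ∀ i ∈ Finset.range p, (if A + (i : ZMod p) * s = ρ then F else 0) =
      if i = i0 then F else 0 := by
    intro i hi
    rw [Finset.mem_range] at hi
    have h3 : A + (i : ZMod p) * s = ρ ↔ i = i0 := by
      constructor
      · intro h
        have h3 : (i : ZMod p) = (ρ - A) * s⁻¹ := by
          rw [← h, add_sub_cancel_left, mul_assoc, mul_inv_cancel₀ hs, mul_one]
        rw [hi0, ← h3, ZMod.val_natCast_of_lt hi]
      · rintro rfl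
        rw [hi0, ZMod.natCast_zmod_val, mul_assoc, inv_mul_cancel₀ hs, mul_one]
        ring
    simp only [h3]
  rw [Finset.sum_congr rfl h2, Finset.sum_ite_eq', if_pos (Finset.mem_range.mpr h1)]

/-- **The turn lemma.** Over `p` turns of a loop with nonzero sum every letter meets every height
once. -/
theorem turn [Fact p.Prime] {f δ : List α → ZMod p} (hf : Rt w f) (hd : Rt w δ) (hh : Rt w h)
    {c q : List α} (hc : w c ≠ 0) (hq : ∀ i, w (pw q i ++ c) ≠ 0) (hS : N h (q ++ c) ≠ N h c)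
    (ρ : ZMod p) : N (fun X => if N h X + δ X = ρ then f X else 0) (pw q p ++ c) =
      N (fun X => if N h X + δ X = ρ then f X else 0) c + (N f (q ++ c) - N f c) := by
  set k : List α → ZMod p := fun X => if N h X + δ X = ρ then f X else 0 with hk
  have hs : N h (q ++ c) - N h c ≠ 0 := sub_ne_zero.mpr hS
  have key : ∀ u : List α, ∑ i ∈ Finset.range p, (N k (u ++ (pw q i ++ c)) - N k (pw q i ++ c)) =
      N f (u ++ c) - N f c := by
    intro u
    induction u with
    | nil => simp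
    | cons a u ih =>
      have h1 : ∀ i ∈ Finset.range p, N k (a :: u ++ (pw q i ++ c)) - N k (pw q i ++ c) =
          (N k (u ++ (pw q i ++ c)) - N k (pw q i ++ c)) +
            (if (N h (a :: u ++ c) + δ (a :: u ++ c)) + (i : ZMod p) * (N h (q ++ c) - N h c) = ρ
              then f (a :: u ++ c) else 0) := by
        intro i _
        have h2 : k (a :: u ++ (pw q i ++ c)) = if (N h (a :: u ++ c) + δ (a :: u ++ c)) +
            (i : ZMod p) * (N h (q ++ c) - N h c) = ρ then f (a :: u ++ c) else 0 := by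
          rw [hk]
          change (if N h (a :: u ++ (pw q i ++ c)) + δ (a :: u ++ (pw q i ++ c)) = ρ then
            f (a :: u ++ (pw q i ++ c)) else 0) = _
          rw [hf _ c (a :: u) (hq i) hc (by simp), hd _ c (a :: u) (hq i) hc (by simp),
            N_ren hh (hq i) hc, N_loop hh hc hq i]
          congr 1
          apply propext
          constructor <;> intro h3 <;> rw [← h3] <;> ring
        rw [← h2, List.cons_append, N]
        ring
      rw [Finset.sum_congr rfl h1, Finset.sum_add_distrib, ih, sum_hit hs, List.cons_append, N]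
      ring
  have h1 := key q
  have h2 : ∀ i ∈ Finset.range p, N k (q ++ (pw q i ++ c)) - N k (pw q i ++ c) =
      N k (pw q (i + 1) ++ c) - N k (pw q i ++ c) := by
    intro i _
    rw [pw_succ, List.append_assoc]
  rw [Finset.sum_congr rfl h2, Finset.sum_range_sub (fun i => N k (pw q i ++ c)) p] at h1
  rw [pw_zero, List.nil_append] at h1
  rw [← h1]
  ring

/-- minimal returns of the return stage are `p` turns of a loop with nonzero sum -/
theorem ret_struct [Fact p.Prime] (hw : Stg w) (hh : Unt w h) (ρ : ZMod p) {c v : List α} {j : ℕ}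
    (hc : rc h ρ c ≠ 0) (hj : 2 ≤ j) (hcj : rc h ρ (pw v j ++ c) ≠ 0)
    (hmin : ∀ i, 1 ≤ i → i < j → rc h ρ (pw v i ++ c) = 0) :
    ∃ q, q ≠ [] ∧ pw v j = pw q p ∧ (∀ i, w (pw q i ++ c) ≠ 0) ∧ N h (q ++ c) ≠ N h c := by
  have hp : p.Prime := Fact.out
  have hv : v ≠ [] := by
    rintro rfl
    apply hc
    have := hmin 1 le_rfl (by omega)
    rwa [pw_one, List.nil_append] at this
  obtain ⟨hwc, hhc, hNc⟩ := rc_sup hh hc
  obtain ⟨hwj, hhj, hNj⟩ := rc_sup hh hcj
  have hex : ∃ j, 1 ≤ j ∧ w (pw v j ++ c) ≠ 0 := ⟨j, by omega, hwj⟩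
  classical
  obtain ⟨j0, hj1, hj2, hj3⟩ : ∃ j0, 1 ≤ j0 ∧ w (pw v j0 ++ c) ≠ 0 ∧
      ∀ i, 1 ≤ i → i < j0 → w (pw v i ++ c) = 0 := by
    refine ⟨Nat.find hex, (Nat.find_spec hex).1, (Nat.find_spec hex).2, fun i h1 h2 => ?_⟩
    by_contra h3
    exact Nat.find_min hex h2 ⟨h1, h3⟩
  obtain ⟨t, ht⟩ := ret_dvd hw.rt hv hwc hj1 hj2 hj3 j hwj
  have hmulr := ret_mul hw.rt hv hwc hj1 hj2
  have ht1 : 1 ≤ t := by
    rcases Nat.eq_zero_or_pos t with rfl | h
    · omega
    · exact h
  set q := pw v j0 with hq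
  have hqi : ∀ i, w (pw q i ++ c) ≠ 0 := by
    intro i
    rw [hq, ← pw_mul]
    exact hmulr i
  have hq0 : q ≠ [] := pw_ne hv hj1
  have hpow : ∀ i, 1 ≤ i → h (pw q i ++ c) = h (q ++ c) := by
    intro i hi
    obtain ⟨m, rfl⟩ : ∃ m, i = m + 1 := ⟨i - 1, by omega⟩
    rw [pw_succ, List.append_assoc]
    exact hh.rt _ _ _ (hqi m) hwc hq0
  have hvj : pw v j = pw q t := by rw [ht, pw_mul]
  have hhq : h (q ++ c) ≠ 0 := by
    rw [← hpow t ht1, ← hvj]; exact hhj
  have hS : N h (q ++ c) ≠ N h c := by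
    intro hS
    have h1 : rc h ρ (q ++ c) ≠ 0 := by
      rw [rc, if_pos (hS.trans hNc)]; exact hhq
    have h2 : j ≤ j0 := by
      by_contra h3
      exact h1 (hmin j0 hj1 (by omega))
    have h4 : j0 ≤ j := by
      by_contra h3
      exact hwj (hj3 j (by omega) (by omega))
    exact hh.ch c v j0 hwc (by omega) hj2 hj3 hS
  refine ⟨q, hq0, ?_, hqi, hS⟩
  have hs : N h (q ++ c) - N h c ≠ 0 := sub_ne_zero.mpr hS
  have h1 : (t : ZMod p) * (N h (q ++ c) - N h c) = 0 := by
    have h2 := N_loop hh.rt hwc hqi t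
    rw [← hvj, hNj, hNc] at h2
    rw [hNc]
    linear_combination -h2
  have h2 : (t : ZMod p) = 0 := (mul_eq_zero.mp h1).resolve_right hs
  have h3 : p ∣ t := (ZMod.natCast_eq_zero_iff t p).mp h2
  have h4 : p ≤ t := Nat.le_of_dvd ht1 h3
  have h5 : rc h ρ (pw q p ++ c) ≠ 0 := by
    have h6 : N h (pw q p ++ c) = ρ := by
      rw [N_loop hh.rt hwc hqi p, CharP.cast_eq_zero, zero_mul, add_zero, hNc]
    rw [rc, if_pos h6, hpow p hp.one_lt.le]
    exact hhq
  have h7 : ¬ p < t := by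
    intro h8
    apply h5
    rw [hq, ← pw_mul]
    refine hmin _ (Nat.mul_pos hj1 hp.pos) ?_
    rw [ht]
    exact Nat.mul_lt_mul_of_pos_left h8 hj1
  have h8 : t = p := by omega
  rw [hvj, h8]

theorem mem_one {G : List α → S} (hG : Rt w G) : Mem w 1 G := by
  intro c c' u h1 h2 h3
  refine hG c c' u h1 h2 ?_
  rintro rfl
  simp [nc] at h3

theorem unt_lc (hh : Unt w h) : Lc w h := ⟨hh.fs, hh.ap, 1, mem_one hh.rt⟩

theorem ap_map {G : List α → S} (hG : AP w G) (f : S → T) : AP w fun X => f (G X) := by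
  intro v
  obtain ⟨n, hn⟩ := hG v
  exact ⟨n, fun m hm X Y hX => congrArg f (hn m hm X Y hX)⟩

theorem ap_pair {G : List α → S} {H : List α → T} (hG : AP w G) (hH : AP w H) :
    AP w fun X => (G X, H X) := by
  intro v
  obtain ⟨n, hn⟩ := hG v
  obtain ⟨m, hm⟩ := hH v
  exact ⟨max n m, fun k hk X Y hX => Prod.ext (hn k ((le_max_left _ _).trans hk) X Y hX)
    (hm k ((le_max_right _ _).trans hk) X Y hX)⟩

theorem unt_nil (hw : Stg w) (hh : Unt w h) : h [] = 0 := by
  by_contra h1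
  exact hh.sup _ h1 hw.nil

theorem rowB1 : RowB1 := by
  intro α p _ w h hw hh ρ
  have h3 := rowB3 α p w h hw hh ρ
  have h2 := rowB2 α (ZMod p) p w h hw hh ρ h (unt_lc hh)
  obtain ⟨hfs, hap, n, hmem⟩ := h3
  refine ⟨?_, ?_, ?_, ?_, ?_⟩
  · rw [rc, unt_nil hw hh, ite_self]
  · exact fs_map (fs_pair hfs hh.fs) fun x => if x.1 = ρ then x.2 else 0
  · exact ap_map (ap_pair hap h2.2.1) fun x => if x.1 = ρ then x.2 else 0
  · intro c c' r hc hc' hr
    obtain ⟨h4, h5, h6⟩ := rc_sup hh hc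
    obtain ⟨h4', h5', h6'⟩ := rc_sup hh hc'
    rw [rc, rc, hh.rt c c' r h4 h4' hr, N_ren hh.rt h4 h4' r, h6, h6']
    congr 1
    apply propext
    constructor <;> intro h7 <;> linear_combination h7
  · intro c v j hc hj hcj hmin heq
    obtain ⟨q, hq0, hq1, hq2, hq3⟩ := ret_struct hw hh ρ hc hj hcj hmin
    have h4 := turn (f := h) (δ := fun _ => 0) hh.rt (fun _ _ _ _ _ _ => rfl) hh.rt
      (rc_sup hh hc).1 hq2 hq3 ρ
    simp only [add_zero] at h4
    rw [hq1] at heq
    change N (rc h ρ) (pw q p ++ c) = N (rc h ρ) c + _ at h4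
    rw [heq] at h4
    apply hq3
    linear_combination -h4

end Vale.Agent.P329.H808
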